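import Crest.Agent.R165.Rep
import Crest.Agent.R165.Poly
import Crest.Agent.R165.B.Ker

/-! # R165 block D: the concrete renormalisation group, definitions (FROZEN; ask helper96 before changing)
See notes165/route.md §D. Generators: half-edges and pairs `ζ_k, ζ'_k` (`τ_k = ζ_k ζ'_k` is the source of the `k`-th
observable). Scales `ℓ_j = l0 L^j`, `λ_j = ℓ_j / 100`. -/

set_option autoImplicit false
noncomputable section
open Classical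

namespace Crest.Agent.R165

/-! ### even algebra helpers (any index type) -/
section helpers
variable {I J : Type}

theorem evP_mem (x : Gr I) : (1 / 2 : ℝ) • (x + CliffordAlgebra.involute x) ∈
    CliffordAlgebra.even (0 : QuadraticForm ℝ (GV I)) := by
  have hx : x ∈ CliffordAlgebra.evenOdd (0 : QuadraticForm ℝ (GV I)) 0 ⊔ CliffordAlgebra.evenOdd _ 1 := by
    rw [(CliffordAlgebra.evenOdd_isCompl _).sup_eq_top]; trivial
  obtain ⟨a, ha, b, hb, rfl⟩ := Submodule.mem_sup.1 hx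
  rw [map_add, CliffordAlgebra.involute_eq_of_mem_even ha, CliffordAlgebra.involute_eq_of_mem_odd hb,
    show (1 / 2 : ℝ) • (a + b + (a + -b)) = a by module]
  exact ha

/-- projection on the even part -/
def evP : Gr I →ₗ[ℝ] Ev I :=
  LinearMap.codRestrict (CliffordAlgebra.even (0 : QuadraticForm ℝ (GV I))).toSubmodule
    ((1 / 2 : ℝ) • (LinearMap.id + CliffordAlgebra.involute.toLinearMap)) fun x => evP_mem x

def toEv (T : Gr I →ₗ[ℝ] Gr J) : Ev I →ₗ[ℝ] Ev J :=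
  evP ∘ₗ T ∘ₗ (CliffordAlgebra.even (0 : QuadraticForm ℝ (GV I))).val.toLinearMap

theorem gmap_mem_even (T : GV I →ₗ[ℝ] GV J) (a : Ev I) :
    gmap T (a : Gr I) ∈ CliffordAlgebra.even (0 : QuadraticForm ℝ (GV J)) := by
  obtain ⟨a, ha⟩ := a
  change gmap T a ∈ CliffordAlgebra.evenOdd (0 : QuadraticForm ℝ (GV J)) 0
  induction a, ha using CliffordAlgebra.even_induction with
  | algebraMap r => rw [AlgHom.commutes]; exact SetLike.algebraMap_mem_graded _ _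
  | add _ _ _ _ hx hy => rw [map_add]; exact Submodule.add_mem _ hx hy
  | ι_mul_ι_mul m₁ m₂ x _ hx =>
    rw [map_mul, map_mul]
    exact mul_eo (i := 0) (j := 0) rfl (by
      have := CliffordAlgebra.ι_mul_ι_mem_evenOdd_zero (0 : QuadraticForm ℝ (GV J)) (T m₁) (T m₂)
      rwa [← gmap_iota T m₁, ← gmap_iota T m₂] at this) hx

def gmapE (T : GV I →ₗ[ℝ] GV J) : Ev I →ₐ[ℝ] Ev J :=
  AlgHom.codRestrict ((gmap T).comp (Subalgebra.val _)) _ (gmap_mem_even T)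

theorem exists_revE : ∃ Φ : Ev I →ₐ[ℝ] Ev I, ∀ a : Ev I, (Φ a : Gr I) = CliffordAlgebra.reverse (a : Gr I) := by
  refine ⟨AlgHom.ofLinearMap (LinearMap.codRestrict (CliffordAlgebra.even (0 : QuadraticForm ℝ (GV I))).toSubmodule
    (CliffordAlgebra.reverse ∘ₗ (CliffordAlgebra.even (0 : QuadraticForm ℝ (GV I))).val.toLinearMap)
    fun a => (CliffordAlgebra.reverse_mem_evenOdd_iff _).2 a.2) (Subtype.ext CliffordAlgebra.reverse.map_one)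
    fun a b => Subtype.ext ?_, fun a => rfl⟩
  change CliffordAlgebra.reverse ((a : Gr I) * (b : Gr I)) =
    CliffordAlgebra.reverse (a : Gr I) * CliffordAlgebra.reverse (b : Gr I)
  rw [even_comm a, CliffordAlgebra.reverse.map_mul]

/-- reversal: `(-1)^k` on degree `2k` -/
def revE : Ev I →ₐ[ℝ] Ev I := exists_revE.choose

/-- degree-two part -/
def deg2 : Gr I →ₗ[ℝ] Gr I := GradedAlgebra.proj (fun i : ℕ => ⋀[ℝ]^i (GV I)) 2

/-- value of the degree-two part on the pair of test functions `(f, f')` -/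
def ev2 (f f' : I → ℝ) : Gr I →ₗ[ℝ] ℝ := gauss (fun i j => f i * f' j - f' i * f j) ∘ₗ deg2

/-- linear map of one-particle spaces given on generators -/
def vmap (T : I → GV J) : GV I →ₗ[ℝ] GV J := Finsupp.linearCombination ℝ T

/-- the rank-one map `u ↦ ⟨u, f⟩ v` -/
def rk1 (f : I → ℝ) (v : GV J) : GV I →ₗ[ℝ] GV J := (Finsupp.linearCombination ℝ f).smulRight v

/-- localized gauge on the even algebra -/
def BdU {X : Type} (U : X → Set (GV I)) (Z : Finset X) (F : Ev I) (c : ℝ) : Prop :=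
  GBd (⋃ x ∈ Z, U x) (F : Gr I) c

/-- local subalgebras: generators located within `ρ` of `Z` -/
def LcOf {X : Type} (G : Geo X) (lc : I → X) (ρ : ℕ) (Z : Finset X) : Subalgebra ℝ (Ev I) :=
  (supA {i | ∃ x ∈ Z, G.d x (lc i) ≤ ρ}).comap (Subalgebra.val _)

end helpers

/-- iterated RG flow -/
def flow {X A : Type} [CommRing A] [Algebra ℝ A] [Algebra ℚ A] (G : Geo X) (e : A →ₐ[ℝ] ℝ) (S : ℕ → Sp X A)
    (s₀ : St X A) : ℕ → St X A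
  | 0 => s₀
  | j + 1 => (S j).next G e (flow G e S s₀ j)

/-! ### the plane geometry and the generators -/

theorem exists_geoZ : ∃ G : Geo Site, G.d = supd ∧ G.ball = box := by
  refine ⟨⟨supd, supd_self, supd_comm, supd_triangle, box, fun x R y => by rw [mem_box, supd_comm], fun x R l hl => ?_⟩,
    rfl, rfl⟩
  refine ⟨(box 0 (R / l + 1)).image fun a => (x.1 + l * a.1, x.2 + l * a.2), Finset.card_image_le.trans ?_,
    fun y hy => ?_⟩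
  · rw [card_box]; exact le_of_eq (by ring)
  · have key : ∀ t : ℤ, -(R : ℤ) ≤ t → t ≤ R → (-((R / l + 1 : ℕ) : ℤ) ≤ t / l ∧ t / l ≤ ((R / l + 1 : ℕ) : ℤ)) ∧
        l * (t / l) ≤ t ∧ t ≤ l * (t / l) + l := by
      intro t h1 h2
      have hl' : (0 : ℤ) < l := by exact_mod_cast hl
      have a1 := Int.mul_ediv_add_emod t l
      have a2 := Int.emod_nonneg t hl'.ne'
      have a3 := Int.emod_lt_of_pos t hl'
      have b1 := Int.mul_ediv_add_emod (R : ℤ) l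
      have b3 := Int.emod_lt_of_pos (R : ℤ) hl'
      have b2 := Int.emod_nonneg (R : ℤ) hl'.ne'
      push_cast
      refine ⟨⟨?_, ?_⟩, by omega, by omega⟩
      · by_contra h; rw [not_le] at h; nlinarith
      · by_contra h; rw [not_le] at h; nlinarith
    rw [mem_box'] at hy
    obtain ⟨⟨p1, p2⟩, p3, p4⟩ := key (y.1 - x.1) (by omega) (by omega)
    obtain ⟨⟨q1, q2⟩, q3, q4⟩ := key (y.2 - x.2) (by omega) (by omega)
    refine ⟨_, Finset.mem_image_of_mem _ (a := ((y.1 - x.1) / l, (y.2 - x.2) / l)) (mem_box'.2 ?_), ?_⟩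
    · simp only [Prod.fst_zero, Prod.snd_zero]; omega
    · rw [supd_comm, supd_le]; dsimp only; omega

def geoZ : Geo Site := exists_geoZ.choose

abbrev IxH (H : Type) : Type := H ⊕ (ℕ × Bool)
abbrev Ix : Type := IxH HE
abbrev Al : Type := Ev Ix

section sources
variable {H : Type}
def extF (f : H → ℝ) : IxH H → ℝ := Sum.elim f 0
/-- extension of a kernel by zero on the sources -/
def extG (g : H → H → ℝ) : IxH H → IxH H → ℝ := fun i j =>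
  match i, j with
  | Sum.inl a, Sum.inl b => g a b
  | _, _ => 0
def dl (i : H) : GV (IxH H) := Finsupp.single (Sum.inl i) 1
def dz (k : ℕ) (b : Bool) : GV (IxH H) := Finsupp.single (Sum.inr (k, b)) 1
def tau (k : ℕ) : Ev (IxH H) := th2 (Sum.inr (k, false)) (Sum.inr (k, true))
/-- kills the half-edge generators -/
def cstA : Ev (IxH H) →ₐ[ℝ] Ev (IxH H) := gmapE (vmap (Sum.elim (fun _ => 0) fun p => dz p.1 p.2))
/-- kills the sources whose index is not in `P` -/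
def killA (P : Set ℕ) : Ev (IxH H) →ₐ[ℝ] Ev (IxH H) :=
  gmapE (vmap (Sum.elim dl fun p => if p.1 ∈ P then dz p.1 p.2 else 0))
/-- flips the sign of all source generators -/
def flipV : GV (IxH H) →ₗ[ℝ] GV (IxH H) := vmap (Sum.elim dl fun p => -dz p.1 p.2)
def flipS : Ev (IxH H) →ₐ[ℝ] Ev (IxH H) := gmapE flipV
/-- local subalgebras: half-edge generators within `ρ` of `Z`, sources are NOT located, even number of sources -/
def LcS {X : Type} (G : Geo X) (lc : H → X) (ρ : ℕ) (Z : Finset X) : Subalgebra ℝ (Ev (IxH H)) :=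
  (supA {i | ∀ a, i = Sum.inl a → ∃ x ∈ Z, G.d x (lc a) ≤ ρ}).comap (Subalgebra.val _) ⊓
    AlgHom.equalizer flipS (AlgHom.id ℝ _)
/-- `∂/∂τ_k`: `dTau k (τ_k F) = F` if `F` does not contain `ζ_k, ζ'_k` -/
def dTau (k : ℕ) : Gr (IxH H) →ₗ[ℝ] Gr (IxH H) :=
  CliffordAlgebra.contractLeft (Finsupp.lapply (Sum.inr (k, true))) ∘ₗ
    CliffordAlgebra.contractLeft (Finsupp.lapply (Sum.inr (k, false)))
/-- coefficient of `Π_{k ∈ l} τ_k` -/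
def coefT (l : List ℕ) (F : Ev (IxH H)) : ℝ := aug ((l.map dTau).prod (F : Gr (IxH H)))
/-- weighted norm on the source algebra -/
def BdT (h : ℝ) (F : Ev (IxH H)) (c : ℝ) : Prop :=
  GBd {u | ∃ k b t, |t| ≤ h ^ (-(1 / 2 : ℝ)) ∧ u = t • dz k b} (F : Gr (IxH H)) c
end sources

def gaugeV (σ : Site → ℝ) : GV Ix →ₗ[ℝ] GV Ix := vmap (Sum.elim (fun i => σ i.1 • dl i) fun p => dz p.1 p.2)
def shiftV (a : Site) : GV Ix →ₗ[ℝ] GV Ix := vmap (Sum.elim (fun i => dl (i.1 + a, i.2)) fun p => dz p.1 p.2)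
def rotS (x : Site) : Site := (-x.2, x.1)
def refS (x : Site) : Site := (x.1, -x.2)
def rotV : GV Ix →ₗ[ℝ] GV Ix :=
  vmap (Sum.elim (fun i => (if i.2 = 3 then (-1 : ℝ) else 1) • dl (rotS i.1, i.2 + 1)) fun p => dz p.1 p.2)
def refV : GV Ix →ₗ[ℝ] GV Ix :=
  vmap (Sum.elim (fun i => (if i.2 = 0 then (1 : ℝ) else -1) • dl (refS i.1, -i.2)) fun p => dz p.1 p.2)
def rotA : Al →ₐ[ℝ] Al := gmapE rotV
/-- the reflection symmetry (only used on source-free elements) -/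
def refA : Al →ₐ[ℝ] Al := revE.comp (gmapE refV)

/-! ### local quadratic forms and jets (plane gauge) -/

def mX (w : Edge → ℝ) (x : Site) : Al := ∑ α : Fin 4, (w (edgeOf x α) / (2 * tc)) • eM Sum.inl (edgeOf x α)
def kX (w : Edge → ℝ) (x : Site) : Al := a0M Sum.inl x + ∑ α : Fin 4, (w (edgeOf x α) / 2) • eM Sum.inl (edgeOf x α)

/-- `pr (zRe x) f = Re (fld f x)`, `pr (zIm x) f = Im (fld f x)`, `pr (zMas x α) f = mas f (x, α)` -/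
def zRe (x : Site) : GV Ix := ∑ α : Fin 4, ((om ^ (α : ℕ)).re / 2) • dl (x, α)
def zIm (x : Site) : GV Ix := ∑ α : Fin 4, ((om ^ (α : ℕ)).im / 2) • dl (x, α)
def zMas (x : Site) (α : Fin 4) : GV Ix := dl (x, α) - cSol 1 (x, α) • zRe x - cSol Complex.I (x, α) • zIm x
/-- test function with field `F (p - x)` and no massive part -/
def fOf (x : Site) (F : ℂ → ℂ) : Fn := fun i => cSol (F (toC (i.1 - x))) i
def P0 (x : Site) : GV Ix →ₗ[ℝ] GV Ix :=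
  rk1 (extF (cSol 1)) (zRe x) + rk1 (extF (cSol Complex.I)) (zIm x)
def P1 (x : Site) : GV Ix →ₗ[ℝ] GV Ix :=
  rk1 (extF (fOf x fun z => z.re)) ((1 / 2 : ℝ) • (zRe (x + (1, 0)) - zRe (x - (1, 0)))) +
  rk1 (extF (fOf x fun z => z.re * Complex.I)) ((1 / 2 : ℝ) • (zIm (x + (1, 0)) - zIm (x - (1, 0)))) +
  rk1 (extF (fOf x fun z => z.im)) ((1 / 2 : ℝ) • (zRe (x + (0, 1)) - zRe (x - (0, 1)))) +
  rk1 (extF (fOf x fun z => z.im * Complex.I)) ((1 / 2 : ℝ) • (zIm (x + (0, 1)) - zIm (x - (0, 1)))) +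
  ∑ α : Fin 4, rk1 (extF fun i => if i.2 = α then 1 else 0) (zMas x α)
/-- `u v ↦ P0u P0v + P0u P1v + P1u P0v` on source-free degree two, `0` elsewhere -/
def jet2 (x : Site) : Gr Ix →ₗ[ℝ] Gr Ix := deg2 ∘ₗ ((gmap (P0 x + P1 x)).toLinearMap - (gmap (P1 x)).toLinearMap)
def nu0 : Gr Ix →ₗ[ℝ] ℝ := ev2 (extF (cSol 1)) (extF (cSol Complex.I))
def z0 (x : Site) : Gr Ix →ₗ[ℝ] ℝ :=
  ev2 (extF (cSol 1)) (extF (fOf x fun z => Complex.I * (starRingEnd ℂ) z)) +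
  ev2 (extF (cSol Complex.I)) (extF (fOf x fun z => (starRingEnd ℂ) z))
/-- `nuF (mX) = 1`, `nuF (kX) = 0`, `zF (mX) = 0`, `zF (kX) = 1` (numerically: nu0 m = -2, nu0 k = 0, z0 m = -2, z0 k = -2 tc) -/
def nuF : Gr Ix →ₗ[ℝ] ℝ := (-1 / 2 : ℝ) • nu0
def zF (x : Site) : Gr Ix →ₗ[ℝ] ℝ := (-1 / (2 * tc) : ℝ) • (z0 x - nu0)
def loc2 (x : Site) : Gr Ix →ₗ[ℝ] Gr Ix :=
  jet2 x + nuF.smulRight ((mX wPl x : Gr Ix) - jet2 x (mX wPl x)) +
    (zF x).smulRight ((kX wPl x : Gr Ix) - jet2 x (kX wPl x))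

/-- sign relating `x` and `y` when no spin lies in their bounding box -/
def sgn (S : Finset Site) (x y : Site) : ℝ :=
  (-1) ^ (S.filter fun v => v.1 ≤ min x.1 y.1 ∧ min x.2 y.2 < v.2 ∧ v.2 ≤ max x.2 y.2).card

/-! ### scales, cut-offs -/

structure Par where
  l0 : ℕ
  L : ℕ
  T : ℕ

namespace Par
variable (p : Par)
def l (j : ℕ) : ℕ := p.l0 * p.L ^ j
def lam (j : ℕ) : ℕ := p.l j / 100
/-- radius of the local subalgebras at step `j` -/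
def rho (j : ℕ) : ℕ := 3 * p.l j + 3
end Par

def cut (r : ℕ) : Site → ℝ := exists_cutoff.choose r
/-- smooth probability kernel of width `2 r` -/
def bump (r : ℕ) (x : Site) : ℝ := cut r x / ∑ y ∈ box 0 (2 * r), cut r y
def conv (f g : Site → ℝ) (x : Site) : ℝ := ∑ᶠ y, f y * g (x - y)
/-- `θ_j = φ_1 * ⋯ * φ_j`, supported in `box 0 (λ_j / 2)` -/
def theta (p : Par) : ℕ → Site → ℝ
  | 0 => fun x => if x = 0 then 1 else 0
  | j + 1 => conv (theta p j) (bump (p.lam (j + 1) / 8))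
/-- `χ_0 = 0`, `χ_j = θ_j * 1_{box (30 λ_j)} * θ_j` -/
def chi (p : Par) (j : ℕ) (x : Site) : ℝ :=
  if j = 0 then 0 else conv (theta p j) (conv (theta p j) fun a => if supd a 0 ≤ 30 * p.lam j then 1 else 0) x
/-- smooth indicator of the `3 ℓ_j`-neighbourhood of `F` -/
def eta (p : Par) (j : ℕ) (F : Set Site) (x : Site) : ℝ :=
  conv (theta p j) (fun a => if ∃ b ∈ F, supd a b ≤ 3 * p.l j then 1 else 0) x

/-- multipliers at scale `l` on `W` -/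
def Mult (W : Set Site) (l : ℕ) (m : Fn) : Prop :=
  ∀ x ∈ W, ∀ α β γ δ : Fin 4, |m (x, α)| ≤ 1 ∧ |m (x, α) - m (x, β)| ≤ 1 / l ∧ |dif (dv γ) m (x, α)| ≤ 1 / l ∧
    |dif (dv δ) (dif (dv γ) m) (x, α)| ≤ 1 / (l : ℝ) ^ 2 ∧
    |dif (dv γ) m (x, α) - dif (dv γ) m (x, β)| ≤ 1 / (l : ℝ) ^ 2

/-! ### geometries -/

/-- everything the flow depends on -/
structure Geom where
  /-- reference weights (with the signs of the spins) -/
  w : Edge → ℝ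
  S : Finset Site
  /-- boundary black sites and the kernel of the domain without spins -/
  Bb : Set Site
  gB : HE → HE → ℝ
  /-- from the scale `jN` on, spins and observables form one cluster, with the true kernel `gS` -/
  jN : ℕ∞
  gS : HE → HE → ℝ
  Gam : ℕ → ℝ
  h : ℕ → ℝ
  /-- rescaled region, shapes of the perturbation -/
  Λ : Set Site
  shp : Set (Finset Site)
  /-- observables `O k`, `k < m`, carried by the polymers `oS k`, located at the edge `y k` -/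
  m : ℕ
  y : ℕ → Edge
  O : ℕ → Cfg → ℝ
  oS : ℕ → Finset Site

namespace Geom
variable (p : Par) (𝔤 : Geom)

def lc : Ix → Site := Sum.elim (fun i => i.1) fun q => (𝔤.y q.1).1
def Lc (_𝔤 : Geom) (j : ℕ) : Finset Site → Subalgebra ℝ Al := LcS geoZ Prod.fst (p.rho j)

/-- the boundary together with the whole exterior (empty for the plane geometries) -/
def Fz : Set Site := {b | b ∈ 𝔤.Bb ∨ |𝔤.w (b, 0)| ≠ tc}

def gloc (j : ℕ) (i i' : HE) : ℝ :=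
  let cB := eta p j 𝔤.Fz i.1 * eta p j 𝔤.Fz i'.1
  let gσ := sgn 𝔤.S i.1 i'.1 * gPl i i'
  gσ + cB * (sgn 𝔤.S i.1 i'.1 * 𝔤.gB i i' - gσ) +
    if (j : ℕ∞) < 𝔤.jN then
      ∑ v ∈ 𝔤.S, eta p j {v} i.1 * eta p j {v} i'.1 *
        (sgn (𝔤.S.erase v) i.1 i'.1 * gBr (i.1 - v, i.2) (i'.1 - v, i'.2) - gσ)
    else eta p j ↑𝔤.S i.1 * eta p j ↑𝔤.S i'.1 * (𝔤.gS i i' - gσ)
/-- covariance integrated up to the scale `j` -/
def gle (j : ℕ) (i i' : HE) : ℝ := chi p j (i.1 - i'.1) * 𝔤.gloc p j i i'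
def Cov (j : ℕ) : Ix → Ix → ℝ := extG (𝔤.gle p (j + 1) - 𝔤.gle p j)

/-- test functions at scale `j ≥ 1` around `x`: multiplier × local solution -/
def Tst (j : ℕ) (x : Site) (f : Fn) : Prop :=
  ∃ m s : Fn, Mult (box x (2 * p.lam j)) (p.lam j) m ∧ SolOn 𝔤.w (box x (2 * p.lam j)) s ∧
    WB 𝔤.S (box x (2 * p.lam j + 1)) (p.lam j) (𝔤.Gam j / Real.sqrt (p.lam j)) s ∧
    ∀ i : HE, i.1 ∈ box x (p.lam j) → f i = m i * s i

def Ups (j : ℕ) (x : Site) : Set (GV Ix) :=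
  {u | (∀ i ∈ u.support, ∃ a : HE, i = Sum.inl a ∧ a.1 ∈ box x (if j = 0 then 3 else p.lam j)) ∧
    if j = 0 then 𝔤.Gam 0 * ∑ i ∈ u.support, |u i| ≤ 1 else ∀ f, 𝔤.Tst p j x f → |pr u (extF f)| ≤ 1}
def Uz (j : ℕ) (x : Site) : Set (GV Ix) :=
  {u | ∃ k b t, k < 𝔤.m ∧ (𝔤.y k).1 ∈ box x (if j = 0 then 3 else p.lam j) ∧ |t| ≤ 𝔤.h j ^ (-(1 / 2 : ℝ)) ∧ u = t • dz k b}
def U (j : ℕ) (x : Site) : Set (GV Ix) := 𝔤.Ups p j x ∪ 𝔤.Uz p j x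
def Bd (j : ℕ) : Finset Site → Al → ℝ → Prop := BdU (𝔤.U p j)

/-- `x` is farther than `r` from the boundary and from the spins -/
def Far (r : ℕ) (x : Site) : Prop := ∀ b, (b ∈ 𝔤.Bb ∨ b ∈ 𝔤.S) → r ≤ supd x b
def Bulk (j : ℕ) (x : Site) : Prop := 𝔤.Far (p.T * p.l j) x ∧ |𝔤.w (x, 0)| = tc

def oK (k : ℕ) : Al := 𝔤.w (𝔤.y k) • eM Sum.inl (𝔤.y k)
/-- coefficient of `τ_k o_k` -/
def obsC (k : ℕ) : Gr Ix →ₗ[ℝ] ℝ := (-1 / tc : ℝ) • (nu0 ∘ₗ (gmap (gaugeV (sgn 𝔤.S (𝔤.y k).1))).toLinearMap ∘ₗ dTau k)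
def mvG (j : ℕ) (x : Site) : Gr Ix →ₗ[ℝ] Gr Ix :=
  ∑ k ∈ Finset.range 𝔤.m, if (j : ℕ∞) < 𝔤.jN ∧ supd x (𝔤.y k).1 ≤ 3 * p.l j then
    (𝔤.obsC k).smulRight ((tau k * 𝔤.oK k : Al) : Gr Ix) else 0
def loc2G (j : ℕ) (x : Site) : Gr Ix →ₗ[ℝ] Gr Ix :=
  if 𝔤.Bulk p j x then
    (gmap (gaugeV (sgn 𝔤.S x))).toLinearMap ∘ₗ loc2 x ∘ₗ (gmap (gaugeV (sgn 𝔤.S x))).toLinearMap
  else 0

/-- the step from scale `j` to scale `j + 1`; `loc x (mu F) = cst (mu F) + loc2 F + mv F` -/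
def sp (j : ℕ) : Sp Site Al where
  l := p.l j
  l' := p.l (j + 1)
  mu := muE (𝔤.Cov p j)
  loc x := cstA.toLinearMap + toEv ((𝔤.loc2G p j x + 𝔤.mvG p j x) ∘ₗ mu (-𝔤.Cov p j))
  cst := cstA.toLinearMap
  mv x := toEv (𝔤.mvG p j x)

/-! #### initial state -/

/-- physical weights at `t` -/
def wT (t : ℝ) (e : Edge) : ℝ := if |𝔤.w e| = tc then t / tc * 𝔤.w e else 𝔤.w e

end Geom

def edgesIn (Z : Finset Site) : Finset Edge := (Z ×ˢ (Finset.univ : Finset (Fin 2))).filter fun e => e.1 + uv e.2 ∈ Z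
/-- `c = (ν₀, z₀)`: `Z = 1 + z₀`, `ν₀ = Z (t - tc)` -/
def tOf (c : ℝ × ℝ) : ℝ := tc + c.1 / (1 + c.2)
def betaOf (J : ℝ) (c : ℝ × ℝ) : ℝ := -Real.log (tOf c) / (2 * J)

namespace Geom
variable (p : Par) (𝔤 : Geom) (c : ℝ × ℝ) (μ : ℝ) (V : Finset Site → ℝ)

def xE (e : Edge) : Al := ((1 + c.2) * 𝔤.wT (tOf c) e) • eM Sum.inl e
/-- soft activity of the perturbation and of the sources (functions of the contour configuration) -/
def actV (Z : Finset Site) : Cfg → Al := fun n =>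
  algebraMap ℝ Al (pertF (Z.powerset.filter fun B => B ∈ 𝔤.shp ∧ bSites B = Z) μ V n - 1)
def actO (Z : Finset Site) : Cfg → Al := fun n =>
  (∏ k ∈ (Finset.range 𝔤.m).filter fun k => 𝔤.oS k = Z, (1 + 𝔤.O k n • tau k)) - 1
def M0 (Z : Finset Site) : Al := hat (𝔤.xE c) (edgesIn Z) (geoZ.grp p.l0 p.l0 𝔤.actO (fun _ => 0) Z)
def s0 : St Site Al where
  q x := pLoc Sum.inl (fun y => if y ∈ 𝔤.Λ then Real.sqrt (1 + c.2) else 1) 𝔤.w (𝔤.wT (tOf c)) x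
  qm _ := 0
  M := 𝔤.M0 p c
  K Z := hat (𝔤.xE c) (edgesIn Z)
    (geoZ.grp p.l0 p.l0 (fun Y => 𝔤.actO Y + 𝔤.actV μ V Y + 𝔤.actO Y * 𝔤.actV μ V Y) (fun _ => 0) Z) - 𝔤.M0 p c Z
/-- the state at scale `j` and the central constant extracted at step `j` -/
def st (j : ℕ) : St Site Al := flow geoZ augE (𝔤.sp p) (𝔤.s0 p c μ V) j
def en (j : ℕ) (x : Site) : Al := (𝔤.sp p j).en geoZ (𝔤.st p c μ V j) x

end Geom

/-- the energy observable at `e`, centred by the plane constant -/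
def enO (c : ℝ × ℝ) (e : Edge) : Cfg → ℝ := fun n =>
  -2 * ((if n e then 1 else 0) - (1 + c.2) * tOf c * gPl (he0 e) (he1 e))
def enS (e : Edge) : Finset Site := {e.1, e.1 + uv e.2}

/-- the whole plane with `m` observables -/
def gPlane (R : ℕ) (Gam h : ℕ → ℝ) (jN : ℕ∞) (m : ℕ) (y : ℕ → Edge) (O : ℕ → Cfg → ℝ) (oS : ℕ → Finset Site) : Geom where
  w := wPl
  S := ∅
  Bb := ∅
  gB := 0
  jN := jN
  gS := 0
  Gam := Gam
  h := h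
  Λ := Set.univ
  shp := {B | IsShape R B}
  m := m
  y := y
  O := O
  oS := oS
/-- no observable -/
def gPl0 (R : ℕ) (Gam : ℕ → ℝ) : Geom := gPlane R Gam (fun _ => 1) ⊤ 0 (fun _ => (0, 0)) (fun _ _ => 0) fun _ => ∅
/-- one spin at the black site `0` -/
def gBr0 (R : ℕ) (Gam : ℕ → ℝ) : Geom := { gPl0 R Gam with w := wOf Set.univ {0}, S := {0} }
/-- one energy observable -/
def gEn (R : ℕ) (Gam h : ℕ → ℝ) (c : ℝ × ℝ) (e : Edge) : Geom :=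
  gPlane R Gam h ⊤ 1 (fun _ => e) (fun _ => enO c e) fun _ => enS e

/-- analytic hypotheses on a geometry for the step `j → j + 1` -/
structure GeoOK (p : Par) (K : ℕ) (Γs : ℝ) (𝔤 : Geom) (j : ℕ) : Prop where
  typ : ∃ ρ : ℝ, (K * p.l (j + 1) : ℝ) ≤ ρ ∧
    ((∃ E : Set Edge, Reg E ρ ∧ 𝔤.w = wOf E 𝔤.S ∧ 𝔤.Bb = {b | BdryB E b} ∧
        (E ≠ Set.univ → E.Finite ∧ IsKer (wOf E ∅) 𝔤.gB ∧ FinRow 𝔤.gB)) ∨
      ∃ T : Set Site, T.Finite ∧ Reg (eDual T) ρ ∧ 𝔤.w = wFree T 𝔤.S ∧ 𝔤.Bb = {b | BdryB (eDual T) b} ∧ ↑𝔤.S ⊆ T ∧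
        IsKer (wFree T ∅) 𝔤.gB ∧ FinRow 𝔤.gB)
  /-- spins and observables are inside, far from the boundary -/
  spin : ∀ v ∈ 𝔤.S, |𝔤.w (v, 0)| = tc ∧ ∀ b ∈ 𝔤.Bb, K * p.l (j + 1) ≤ supd v b
  obs : ∀ k < 𝔤.m, |𝔤.w (𝔤.y k)| = tc ∧ ∀ b ∈ 𝔤.Bb, K * p.l (j + 1) ≤ supd (𝔤.y k).1 b
  sep : (j : ℕ∞) < 𝔤.jN → (∀ v ∈ 𝔤.S, ∀ v' ∈ 𝔤.S, v ≠ v' → K * p.l (j + 1) ≤ supd v v') ∧
    (∀ k < 𝔤.m, ∀ v ∈ 𝔤.S, K * p.l (j + 1) ≤ supd (𝔤.y k).1 v) ∧
    ∀ k < 𝔤.m, ∀ k' < 𝔤.m, k ≠ k' → K * p.l (j + 1) ≤ supd (𝔤.y k).1 (𝔤.y k').1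
  kerS : 𝔤.jN ≤ (j + 1 : ℕ) → 𝔤.S.Nonempty → ∃ CS : ℝ, 1 ≤ CS ∧ Γs * CS * (𝔤.S.card + 1) ≤ 𝔤.Gam j ∧ IsKer 𝔤.w 𝔤.gS ∧
    ∀ (l : ℕ) (i i' : HE), 1 ≤ l → l ≤ p.l (j + 1) → l ≤ supd i.1 i'.1 + 1 →
      𝔤.gS i i' ^ 2 * (dB 𝔤.S l i.1 * dB 𝔤.S l i'.1) ≤ CS ^ 2
  clu : 𝔤.jN ≤ j → (∃ xc : Site, ∃ r₀ : ℕ, K * r₀ ≤ p.l j ∧ Even 𝔤.S.card ∧ (∀ v ∈ 𝔤.S, v ∈ box xc r₀) ∧
      ∀ k < 𝔤.m, (𝔤.y k).1 ∈ box xc r₀) ∨ (K * (𝔤.S.card + 𝔤.m + 1) : ℝ) * 𝔤.Gam (j + 1) ≤ 𝔤.Gam j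
  gam : Γs ≤ 𝔤.Gam j ∧ Γs ≤ 𝔤.Gam (j + 1) ∧ 𝔤.Gam (j + 1) ≤ 2 * 𝔤.Gam j ∧
    (j = 0 → Γs * p.l 1 * 𝔤.Gam 1 ≤ 𝔤.Gam 0 ∧ 𝔤.Gam 0 ≤ 4 * Γs * p.l 1 * 𝔤.Gam 1)
  wt : 0 < 𝔤.h j ∧ 0 < 𝔤.h (j + 1) ∧ 𝔤.h (j + 1) ≤
    (if (j : ℕ∞) < 𝔤.jN then (if j = 0 then 𝔤.Gam 0 ^ 2 * p.l 1 / 𝔤.Gam 1 ^ 2 else (p.L : ℝ)) else 1) * 𝔤.h j
  /-- the cluster regime does not start at the scale `1` (needed for `gram_zero`) -/
  one : 𝔤.jN = 1 → 𝔤.S = ∅

/-- one-particle data from which the stability bound `h1` follows (any site space) -/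
structure OP {X I : Type} (G : Geo X) (l' : ℕ) (U U' : X → Set (GV I)) (C : I → I → ℝ) (κL : ℝ) (N₀ : ℕ)
    (Lb : Type) (lab : X → GV I → Option Lb) (ζ : Lb → GV I) : Prop where
  bal : ∀ x, ∀ u ∈ U' x, ∀ t : ℝ, |t| ≤ 1 → t • u ∈ U' x
  zero : ∀ x, (0 : GV I) ∈ U' x
  gram : Gram (⋃ x, U x) C (1 / 4)
  gen : ∀ x, ∀ u ∈ U x, lab x u = none → (∃ v ∈ U' x, u = (1 / 2 : ℝ) • v) ∨ (u ∈ U' x ∧ ∀ v, bil C u v = 0)
  spe : ∀ x, ∀ u ∈ U x, ∀ a, lab x u = some a → ∃ t : ℝ, (∃ v ∈ U' x, t • ζ a = κL • v) ∧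
    ∃ v ∈ U' x, u - t • ζ a = (1 / 2 : ℝ) • v
  cnt : ∀ Z : Finset X, ∃ s : Finset Lb, s.card ≤ N₀ * G.cov l' Z ∧ ∀ x ∈ Z, ∀ u ∈ U x, ∀ a, lab x u = some a → a ∈ s

end Crest.Agent.R165
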