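import Crest.Agent.R165.D2.Main

/-! # R165 block D: constants, tuning, locality predicates (FROZEN; ask helper96 before changing) -/

set_option autoImplicit false
noncomputable section
open Classical

namespace Crest.Agent.R165

/-- the conclusion of `next_bound` -/
def NextBd (L : ℕ) (Λ θ a C ε : ℝ) : Prop :=
  ∀ (X A : Type) [CommRing A] [Algebra ℝ A] [Algebra ℚ A] (G : Geo X)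
      (e : A →ₐ[ℝ] ℝ) (Lc : Finset X → Subalgebra ℝ A) (S : Sp X A) (Bd Bd' : Finset X → A → ℝ → Prop)
      (κ : X → ℝ) (s : St X A) (αK αq αd εM : ℝ),
      1 ≤ S.l → S.l' = L * S.l → BdAx Bd e → BdAx Bd' e → S.Alg G Lc → S.Ana G Lc Bd Bd' Λ θ κ →
      s.Lcl G Lc S.l → αK ≤ ε → αq ≤ ε → εM ≤ ε →
      G.PN Bd S.l a s.K αK → G.PN Bd S.l a s.M εM → G.SN Bd S.l s.q αq → G.SN Bd S.l s.qm αq →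
      G.SN Bd' S.l' (fun x => S.mu (s.q x) - S.loc x (S.mu (s.q x))) αd →
      G.PN Bd' S.l' a (S.next G e s).K (2 * θ * αK + a * αd + C * (αK + αq) * (αK + αq + εM))

structure Cons where
  p : Par
  K : ℕ
  Γs : ℝ
  Λ : ℝ
  a : ℝ
  C : ℝ
  /-- admissible size of the background -/
  ε : ℝ
  Γ₀ : ℝ
  Γ₁ : ℝ

/-- decay rate of the flow -/
def vth : ℝ := 1 / 16
def Cons.Gam (k : Cons) (j : ℕ) : ℝ := if j = 0 then k.Γ₀ else k.Γ₁ * 2 ^ j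

structure ConsOK (R : ℕ) (k : Cons) : Prop where
  pok : k.p.OK
  l0 : k.K ≤ k.p.l0 ∧ 10 * R + 20 ≤ k.p.l0
  big : 20 * k.p.T ≤ k.p.L ∧ 20 ≤ k.K
  step : ∀ 𝔤 j, GeoOK k.p k.K k.Γs 𝔤 j → StepOK k.p k.Λ (1 / 128) 𝔤 j
  nb : NextBd k.p.L k.Λ (1 / 128) k.a k.C k.ε
  one : 1 ≤ k.Γs ∧ 1 ≤ k.Λ ∧ 9 * k.Λ ≤ k.a ∧ 1 ≤ k.C ∧ 0 < k.ε ∧ 128 * k.C * k.ε ≤ 1
  gam : k.Γs ≤ k.Γ₁ ∧ k.Γ₀ = 2 * k.Γs * k.p.l 1 * (2 * k.Γ₁)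
  fin : ∀ (N₀ n : ℕ) (CS : ℝ), ∃ Γf : ℝ, ∀ (𝔤 : Geom) (j : ℕ) (g : HE → HE → ℝ) (x₀ : Site),
    GeoOK k.p k.K k.Γs 𝔤 j → 𝔤.S.card ≤ n → IsKer 𝔤.w g → (𝔤.jN ≤ (j + 1 : ℕ) → 𝔤.S.Nonempty → 𝔤.gS = g) →
    (∀ (l : ℕ) (i i' : HE), 1 ≤ l → l ≤ k.p.l (j + 1) → l ≤ supd i.1 i'.1 + 1 →
      g i i' ^ 2 * (dB 𝔤.S l i.1 * dB 𝔤.S l i'.1) ≤ CS ^ 2) → Γf ≤ 𝔤.Gam (j + 1) →
    Gram (⋃ x ∈ box x₀ (N₀ * k.p.l (j + 1)), 𝔤.U k.p (j + 1) x) (extG (g - 𝔤.gle k.p (j + 1))) 1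

/-- combinatorial hypotheses on the initial data -/
structure InitOK (p : Par) (R : ℕ) (c : ℝ × ℝ) (𝔤 : Geom) : Prop where
  shape : ∀ B ∈ 𝔤.shp, IsShape R B ∧ ↑(bSites B) ⊆ 𝔤.Λ
  full : ∀ B, IsShape R B → (∀ z ∈ B, |𝔤.w (z, 0)| = tc ∧ ∀ b ∈ 𝔤.Bb, 3 * R + 10 ≤ supd z b) → B ∈ 𝔤.shp
  crit : ∀ e : Edge, |𝔤.w e| = tc → e.1 ∈ 𝔤.Λ ∧ e.1 + uv e.2 ∈ 𝔤.Λ
  wle : ∀ e, |𝔤.w e| ≤ 1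
  obs : ∀ k < 𝔤.m, geoZ.Conn p.l0 (𝔤.oS k) ∧ (𝔤.y k).1 ∈ 𝔤.oS k ∧ ↑(𝔤.oS k) ⊆ 𝔤.Λ ∧ DependsOn (𝔤.O k) ↑(edgesIn (𝔤.oS k))
  ener : 0 < 𝔤.jN → ∀ k < 𝔤.m, 𝔤.O k = enO c (𝔤.y k) ∧ 𝔤.oS k = enS (𝔤.y k) ∧
    𝔤.w (𝔤.y k) = tc * eray 𝔤.S (𝔤.y k)

/-- size of the sources at scale `0` -/
def Src0 (k : Cons) (𝔤 : Geom) (ε₁ : ℝ) : Prop :=
  ∃ b : ℕ → ℝ, (∀ i < 𝔤.m, ∀ n, |𝔤.O i n| ≤ b i) ∧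
    ∑ i ∈ Finset.range 𝔤.m, (3 * k.a) ^ (𝔤.oS i).card * (1 + 4 * k.Γ₀ ^ 2) ^ (edgesIn (𝔤.oS i)).card * (𝔤.h 0 * b i) ≤ ε₁

/-- the plane flow started at `c` stays on the critical manifold -/
def Tuned (k : Cons) (R : ℕ) (V : Finset Site → ℝ) (c : ℝ × ℝ) (μ B : ℝ) : Prop :=
  ∃ ν z : ℕ → ℝ, ν 0 = c.1 ∧ z 0 = c.2 ∧ ∀ j,
    (∀ x, ((gPl0 R k.Gam).st k.p c μ V j).q x = ν j • mX wPl x + z j • kX wPl x) ∧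
    (|ν j| * k.p.l j + |z j|) * (k.p.l j : ℝ) ^ (if j = 0 then 2 else 0) * k.Gam j ^ 2 ≤ B * vth ^ j

/-- translation by `a`, gauge `σ`, renaming / killing of the sources -/
def trV (a : Site) (σ : Site → ℝ) (ρ : ℕ → Option ℕ) : GV Ix →ₗ[ℝ] GV Ix :=
  vmap (Sum.elim (fun i => σ i.1 • dl (i.1 + a, i.2)) fun q => match ρ q.1 with
    | some k => dz k q.2
    | none => 0)
def trA (a : Site) (σ : Site → ℝ) (ρ : ℕ → Option ℕ) : Al →ₐ[ℝ] Al := gmapE (trV a σ ρ)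
def trE (a : Site) (e : Edge) : Edge := (e.1 + a, e.2)

/-- the two geometries have the same data on the window `W` up to the scale `j` -/
structure Agree (p : Par) (𝔤 𝔤' : Geom) (a : Site) (σ : Site → ℝ) (ρ : ℕ → Option ℕ) (W : Finset Site) (j : ℕ) : Prop where
  sign : IsSign σ
  w : ∀ e : Edge, e.1 ∈ W → e.1 + uv e.2 ∈ W → 𝔤'.w (trE a e) = σ e.1 * σ (e.1 + uv e.2) * 𝔤.w e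
  vol : ∀ x ∈ W, x + a ∈ 𝔤'.Λ ↔ x ∈ 𝔤.Λ
  shp : ∀ B : Finset Site, bSites B ⊆ W → (B.image (· + a) ∈ 𝔤'.shp ↔ B ∈ 𝔤.shp)
  inj : ∀ k₁ k₂ k', ρ k₁ = some k' → ρ k₂ = some k' → k₁ = k₂
  obs : ∀ k k', ρ k = some k' → k < 𝔤.m ∧ k' < 𝔤'.m ∧ 𝔤'.y k' = trE a (𝔤.y k) ∧ 𝔤'.oS k' = (𝔤.oS k).image (· + a) ∧
    (∀ n, 𝔤'.O k' n = 𝔤.O k (n ∘ trE a)) ∧ ∀ i < j, (((i : ℕ∞) < 𝔤'.jN) ↔ (i : ℕ∞) < 𝔤.jN)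
  obs' : ∀ k' < 𝔤'.m, (𝔤'.y k').1 - a ∈ W → ∃ k, ρ k = some k'
  cov : ∀ i ≤ j, ∀ u v : HE, u.1 ∈ W → v.1 ∈ W →
    𝔤'.gle p i (u.1 + a, u.2) (v.1 + a, v.2) = σ u.1 * σ v.1 * 𝔤.gle p i u v
  bulk : ∀ i < j, ∀ x ∈ W, 𝔤'.Bulk p i (x + a) ↔ 𝔤.Bulk p i x
  gauge : ∀ i < j, ∀ x ∈ W, (𝔤.Bulk p i x ∨ ∃ k k', ρ k = some k' ∧ x = (𝔤.y k).1 ∧ (i : ℕ∞) < 𝔤.jN) →
    ∀ x' ∈ W, supd x x' ≤ 10 * p.l i → sgn 𝔤'.S (x + a) (x' + a) = σ x * σ x' * sgn 𝔤.S x x'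

/-- the same geometry without spins: weights `w₀` -/
def Geom.noSpin (𝔤 : Geom) (w₀ : Edge → ℝ) : Geom := { 𝔤 with w := w₀, S := ∅ }

/-- renormalised coefficient of the energy observable `k` in the background at scale `j` -/
def Geom.cE (p : Par) (𝔤 : Geom) (c : ℝ × ℝ) (μ : ℝ) (V : Finset Site → ℝ) (j k : ℕ) : ℝ :=
  -2 * (1 + c.2) * tOf c / tc + ∑ i ∈ Finset.range j, ∑ x ∈ box (𝔤.y k).1 (3 * p.l i),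
    𝔤.obsC k (((𝔤.st p c μ V i).qm x : Al) : Gr Ix)

/-- hypotheses on the weights of the sources along the flow -/
structure SrcOK (k : Cons) (𝔤 : Geom) (js : ℕ) (ε₂ CM : ℝ) : Prop where
  zero : if 𝔤.jN = 0 then Src0 k 𝔤 ε₂ else 𝔤.h 0 * 𝔤.Gam 0 ^ 2 = ε₂
  ener : ∀ j ≤ js, 1 ≤ j → (j : ℕ∞) ≤ 𝔤.jN → 𝔤.h j * 𝔤.Gam j ^ 2 = ε₂ * k.p.l j
  clu0 : 𝔤.jN = 0 → 𝔤.m ≤ 1
  clu : ∀ j < js, (j : ℕ∞) = 𝔤.jN → j ≠ 0 → CM * (𝔤.m + 1) * 𝔤.h (j + 1) ≤ 𝔤.h j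

/-- all bounds on the flow up to the scale `js`; `α = C₁ B` -/
structure FlowOK (k : Cons) (𝔤 : Geom) (c : ℝ × ℝ) (μ : ℝ) (V : Finset Site → ℝ) (js : ℕ) (α : ℝ) : Prop where
  K : ∀ j ≤ js, geoZ.PN (𝔤.Bd k.p j) (k.p.l j) k.a (𝔤.st k.p c μ V j).K (α * vth ^ j)
  M : ∀ j ≤ js, geoZ.PN (𝔤.Bd k.p j) (k.p.l j) k.a (𝔤.st k.p c μ V j).M k.ε
  q : ∀ j ≤ js, geoZ.SN (𝔤.Bd k.p j) (k.p.l j) (𝔤.st k.p c μ V j).q (α * vth ^ j)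
  qm : ∀ j ≤ js, geoZ.SN (𝔤.Bd k.p j) (k.p.l j) (𝔤.st k.p c μ V j).qm (α * vth ^ j)
  en : ∀ j < js, geoZ.SN (fun _ F t => BdT (𝔤.h (j + 1)) F t) (k.p.l j) (𝔤.en k.p c μ V j) (α * vth ^ j)
  cE : ∀ j < js, ∀ i < 𝔤.m, ((j : ℕ∞) < 𝔤.jN) → |𝔤.cE k.p c μ V (j + 2) i - 𝔤.cE k.p c μ V (j + 1) i| ≤
    α * vth ^ j * k.p.l j / (𝔤.Gam j ^ 2 * 𝔤.h j)

/-- the constants produced by `flow_bound` -/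
def FlowBd (k : Cons) (R : ℕ) (V : Finset Site → ℝ) (C₁ B₁ ε₂ CM : ℝ) : Prop :=
  ∀ (𝔤 : Geom) (c : ℝ × ℝ) (μ B : ℝ) (js : ℕ), Tuned k R V c μ B → |μ| ≤ B → B ≤ B₁ → 0 < js → InitOK k.p R c 𝔤 →
    (∀ j < js, GeoOK k.p k.K k.Γs 𝔤 j) → (0 < 𝔤.jN ∨ 𝔤.S = ∅) → 𝔤.Gam 0 = k.Gam 0 → (∀ j ≤ js, 𝔤.Gam j ≤ k.Gam j) →
    (𝔤.m = 0 ∨ SrcOK k 𝔤 js ε₂ CM) → FlowOK k 𝔤 c μ V js (C₁ * B)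

/-- finite-volume data: true kernel `g`, volume, shapes, edge set of the contour sum -/
structure FinOK (𝔤 : Geom) (g : HE → HE → ℝ) (Λ₀ Λf : Finset Site) (𝒮 : Finset (Finset Site)) (E₁ : Finset Edge) : Prop where
  ker : IsKer 𝔤.w g ∧ FinRow g
  vol : 𝔤.Λ = ↑Λ₀
  big : ∀ x ∈ Λ₀, x ∈ Λf ∧ ∀ α, x + dv α ∈ Λf
  shp : 𝔤.shp = ↑𝒮
  e₁ : ∀ e, e ∉ E₁ → 𝔤.w e ≠ 0 → ∀ x ∈ Λf.biUnion (box · 1), ∀ α, g (x, α) (he0 e) = 0 ∧ g (x, α) (he1 e) = 0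
  e₂ : ∀ x ∈ Λf, ∀ α, edgeOf x α ∉ E₁ → 𝔤.w (edgeOf x α) = 0

/-- the generating function of the correlations, in the source algebra -/
def Geom.Ztau (𝔤 : Geom) (c : ℝ × ℝ) (μ : ℝ) (V : Finset Site → ℝ) (𝒮 : Finset (Finset Site)) (E₁ : Finset Edge) : Al :=
  ∑ γ ∈ E₁.powerset.filter EvenSub, ((∏ e ∈ γ, 𝔤.wT (tOf c) e) * pertF 𝒮 μ V (ind γ)) •
    ∏ i ∈ Finset.range 𝔤.m, (1 + 𝔤.O i (ind γ) • tau i)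

end Crest.Agent.R165
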