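import Crest.Agent.R165.D6.Main

/-! # R165 block D: the universal constants (FROZEN) -/

set_option autoImplicit false
noncomputable section
open Classical

namespace Crest.Agent.R165

variable (k : Cons) (R : ℕ) (V : Finset Site → ℝ) (c : ℝ × ℝ) (μ : ℝ)

/-- `log Zs`: excess free energy of a branch point -/
def lZs : ℝ := ∑' j, ∑ x ∈ box 0 (6 * k.p.l (j + 1)),
  (augE ((gBr0 R k.Gam).en k.p c μ V j x) - augE ((gPl0 R k.Gam).en k.p c μ V j x))
/-- `Ze` (the flow does not depend on the fields `Gam`, `h`) -/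
def zeC : ℝ := Filter.limUnder Filter.atTop fun j => (gEn R k.Gam (fun _ => 1) c ((0, 0), 0)).cE k.p c μ V j 0 / (-2)
/-- plane geometry with the local observable `O` carried by `box 0 r` -/
def gObs (h : ℝ) (O : Cfg → ℝ) (r : ℕ) : Geom :=
  gPlane R k.Gam (fun _ => h) 0 1 (fun _ => ((0, 0), 0)) (fun _ => O) fun _ => box 0 r
/-- infinite-volume expectation of `O` -/
def omegaO (O : Cfg → ℝ) (r : ℕ) : ℝ :=
  gauss (extG gPl) ((hat ((gObs k R 1 O r).xE c) (edgesIn (box 0 r)) (fun n => algebraMap ℝ Al (O n)) : Al) : Gr Ix) +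
    ∑' j, ∑ x ∈ box 0 (k.p.rho j), coefT [0] ((gObs k R 1 O r).en k.p c μ V j x)

/-- everything that is fixed once `lam` is fixed -/
structure Ctx (J lam : ℝ) (C₁ B₁ ε₂ CM B : ℝ) : Prop where
  hk : ConsOK R k
  hV : PotOK R V
  cst : 1 ≤ C₁ ∧ 0 < ε₂ ∧ 1 ≤ CM ∧ C₁ * B₁ ≤ 1
  fl : FlowBd k R V C₁ B₁ ε₂ CM
  tu : Tuned k R V c (betaOf J c * lam) B
  sm : |betaOf J c * lam| ≤ B ∧ B ≤ B₁ ∧ |c.1| ≤ 1 / 10 ∧ |c.2| ≤ 1 / 10 ∧ |c.1| ≤ B ∧ |c.2| ≤ B
  t : Real.exp (-2 * betaOf J c * J) = tOf c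

/-- lift of a torus configuration to the plane -/
def liftT (L : ℕ) (σ : Crest.ProbabilityR.IsingModel.TorusConfig L) : Site → Bool :=
  fun z => σ (Crest.ProbabilityR.IsingModel.toTorus L z)

end Crest.Agent.R165
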