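import Crest.Agent.R165.D7.Main
import Crest.Agent.R165.E.Main

/-! # R165 block D+E: universality (public statement, FROZEN; architecture in `D/Defs.lean`, route.md §D) -/

set_option autoImplicit false
noncomputable section
open Classical Filter Topology Crest.ProbabilityR.IsingModel

namespace Crest.Agent.R165

theorem exists_box_edges (E₀ : Finset Edge) : ∃ r : ℕ, E₀ ⊆ edgesIn (box 0 r) := by
  refine ⟨E₀.sup fun e => e.1.1.natAbs + e.1.2.natAbs + 1, fun e he => ?_⟩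
  have h1 : e.1.1.natAbs + e.1.2.natAbs + 1 ≤ E₀.sup fun e => e.1.1.natAbs + e.1.2.natAbs + 1 :=
    Finset.le_sup (f := fun e : Edge => e.1.1.natAbs + e.1.2.natAbs + 1) he
  generalize (E₀.sup fun e => e.1.1.natAbs + e.1.2.natAbs + 1) = r at h1
  obtain ⟨⟨x, y⟩, d⟩ := e
  simp only at h1
  fin_cases d <;> simp [edgesIn, box, uv] <;> omega

theorem U_main {J : ℝ} (hJ : 0 < J) {R : ℕ} {V : Finset Site → ℝ} (hV : PotOK R V) :
    ∃ lam₀ : ℝ, 0 < lam₀ ∧ ∃ (βc Zs Ze : ℝ → ℝ) (C : ℝ),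
      (∀ lam, |lam| < lam₀ → |βc lam - criticalBeta J| ≤ C * |lam| ∧ |Zs lam - 1| ≤ C * |lam| ∧ |Ze lam - 1| ≤ C * |lam|) ∧
      -- (U1) bounded domains
      (∀ D, Nice D → ∀ (b : BoundaryCondition) (n m : ℕ) (x : Fin n → ℂ) (y : Fin m → ℂ) (j : Fin m → Fin 2),
        (b = .plus ∨ (b = .free ∧ Even n)) → (∀ i, x i ∈ D) → (∀ k, y k ∈ D) → Function.Injective (Fin.append x y) →
        ∀ lam, |lam| < lam₀ → ∀ ε > 0, ∃ a₀ > 0, ∀ a, 0 < a → a < a₀ →
          |domainMixedCorr D a b J lam R V (βc lam) x y j -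
              Zs lam ^ n * Ze lam ^ m * domainMixedCorr D a b J 0 R V (criticalBeta J) x y j| ≤
            ε * (|domainMixedCorr D a b J 0 R V (criticalBeta J) x y j| +
              a ^ m * |domainMixedCorr D a b J 0 R V (criticalBeta J) x ![] ![]|)) ∧
      -- (U2) the same, uniformly over large discs
      (∀ (n m : ℕ) (x : Fin n → ℂ) (y : Fin m → ℂ) (j : Fin m → Fin 2), Even n → Function.Injective (Fin.append x y) →
        ∀ lam, |lam| < lam₀ → ∀ ε > 0, ∃ a₀ > 0, ∃ K₀ : ℝ, ∀ a, 0 < a → a < a₀ → ∀ K, K₀ ≤ K →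
          |domainMixedCorr (Metric.ball 0 K) a .plus J lam R V (βc lam) x y j -
              Zs lam ^ n * Ze lam ^ m * domainMixedCorr (Metric.ball 0 K) a .plus J 0 R V (criticalBeta J) x y j| ≤
            ε * (|domainMixedCorr (Metric.ball 0 K) a .plus J 0 R V (criticalBeta J) x y j| +
              a ^ m * |domainMixedCorr (Metric.ball 0 K) a .plus J 0 R V (criticalBeta J) x ![] ![]|)) ∧
      -- (U3) local observables: torus and large discs have the same limit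
      ∀ lam, |lam| < lam₀ → ∀ (O : Cfg → ℝ) (E₀ : Finset Edge), DependsOn O ↑E₀ → ∃ ω : ℝ,
        Tendsto (fun L : ℕ => torusExpect (L + 1) J lam R V (βc lam) fun σ => O (nOf (liftT (L + 1) σ))) atTop (𝓝 ω) ∧
        ∀ a > 0, Tendsto (fun K : ℝ => domainExpect (Metric.ball 0 K) a .plus J lam R V (βc lam) fun σ => O (nOf σ))
          atTop (𝓝 ω) := by
  obtain ⟨k, hk⟩ := exists_cons R
  obtain ⟨C₁, B₁, ε₂, CM, h1, hB₁, h2, h3, h4, hfl⟩ := flow_bound hk hV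
  obtain ⟨lam₀, B₀, hl₀, hB₀, htu⟩ := tune hJ hk hV
  obtain ⟨B₂, hB₂, hto⟩ := torus_limit hk hV
  obtain ⟨C₂, hC₂⟩ := D7.lZs_facts k C₁
  obtain ⟨C₃, hC₃⟩ := D7.zeC_facts k C₁ ε₂
  choose! c hc using htu
  set lam₁ : ℝ := min lam₀ (min B₁ (min B₂ (1 / (|C₂| + 1))) / B₀) with hlam₁
  have hm : 0 < min B₁ (min B₂ (1 / (|C₂| + 1))) := lt_min hB₁ (lt_min hB₂ (by positivity))
  have hsm : ∀ lam, |lam| < lam₁ → |lam| < lam₀ ∧ B₀ * |lam| ≤ B₁ ∧ B₀ * |lam| ≤ B₂ ∧ B₀ * |lam| ≤ 1 / (|C₂| + 1) := by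
    intro lam hl
    have a1 := (lt_min_iff.1 hl).2
    rw [lt_div_iff₀ hB₀, mul_comm] at a1
    exact ⟨(lt_min_iff.1 hl).1, a1.le.trans (min_le_left _ _), a1.le.trans ((min_le_right _ _).trans (min_le_left _ _)),
      a1.le.trans ((min_le_right _ _).trans (min_le_right _ _))⟩
  have ctx : ∀ lam, |lam| < lam₁ → Ctx k R V (c lam) J lam C₁ B₁ ε₂ CM (B₀ * |lam|) := by
    intro lam hl
    obtain ⟨a0, a1, -, -⟩ := hsm lam hl
    obtain ⟨b1, b2, b3, b4, -, b6, b7, b8⟩ := hc lam a0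
    exact ⟨hk, hV, ⟨h1, h2, h3, h4⟩, hfl, b8, ⟨b6, a1, b3, b4, b1, b2⟩, b7⟩
  refine ⟨lam₁, lt_min hl₀ (div_pos hm hB₀), fun lam => betaOf J (c lam),
    fun lam => Real.exp (lZs k R V (c lam) (betaOf J (c lam) * lam)), fun lam => zeC k R V (c lam) (betaOf J (c lam) * lam),
    (1 + 2 * |C₂| + |C₃|) * B₀, fun lam hl => ?_, fun D hD b n m x y j hb hx hy hi lam hl => U1 hJ (ctx lam hl) hD b n m x y j hb hx hy hi,
    fun n m x y j hn hi lam hl => U2 hJ (ctx lam hl) n m x y j hn hi, fun lam hl O E₀ hO => ?_⟩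
  · obtain ⟨a0, -, -, a3⟩ := hsm lam hl
    have b5 := (hc lam a0).2.2.2.2.1
    have c2 := (hC₂ R V _ J lam B₁ ε₂ CM _ (ctx lam hl)).1
    have c3 := (hC₃ R V _ J lam B₁ CM _ (ctx lam hl)).1
    have hB : 0 ≤ B₀ * |lam| := by positivity
    have d2 : C₂ * (B₀ * |lam|) ≤ |C₂| * (B₀ * |lam|) := mul_le_mul_of_nonneg_right (le_abs_self _) hB
    have d3 : C₃ * (B₀ * |lam|) ≤ |C₃| * (B₀ * |lam|) := mul_le_mul_of_nonneg_right (le_abs_self _) hB
    have e2 : 0 ≤ |C₂| * (B₀ * |lam|) := by positivity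
    have e3 : 0 ≤ |C₃| * (B₀ * |lam|) := by positivity
    have e4 : |C₂| * (B₀ * |lam|) ≤ 1 := by
      rw [le_div_iff₀ (by positivity)] at a3
      nlinarith
    have e5 := Real.abs_exp_sub_one_le (x := lZs k R V (c lam) (betaOf J (c lam) * lam)) (by linarith)
    have e6 : (1 + 2 * |C₂| + |C₃|) * B₀ * |lam| = B₀ * |lam| + 2 * (|C₂| * (B₀ * |lam|)) + |C₃| * (B₀ * |lam|) := by ring
    rw [e6]
    exact ⟨by linarith, by linarith, by linarith⟩
  · obtain ⟨r, hr⟩ := exists_box_edges E₀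
    have hO' : DependsOn O ↑(edgesIn (box 0 r)) := hO.mono (Finset.coe_subset.2 hr)
    exact ⟨_, hto (ctx lam hl) (hsm lam hl).2.2.1 O r hO', fun a ha => U3_disc (ctx lam hl) O r hO' ha⟩

end Crest.Agent.R165
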